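import Vale.Agent.P218.CY.Defs
import Vale.Agent.P218.H63.Geom

/-! The stability operator on the round cylinder. -/

open MeasureTheory Set Filter Topology
open scoped ENNReal NNReal ContDiff

namespace Vale.Agent.P218.CY.H571

open Vale.Agent.P218.H63 Vale.Agent.P218.H588

theorem trace_eq (T : E3 →L[ℝ] E3) :
    LinearMap.trace ℝ E3 T.toLinearMap = ∑ i, inner ℝ (ee i) (T (ee i)) := by
  rw [LinearMap.trace_eq_sum_inner _ (EuclideanSpace.basisFun (Fin 3) ℝ)]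
  refine Finset.sum_congr rfl fun i _ => ?_
  simp [ee, EuclideanSpace.basisFun_apply]

theorem inner_eq (x y : E3) : inner ℝ x y = x 0 * y 0 + x 1 * y 1 + x 2 * y 2 := by
  rw [PiLp.inner_apply, Fin.sum_univ_three]
  simp [mul_comm]

theorem ee_apply (i j : Fin 3) : ee i j = if j = i then 1 else 0 := by
  simp [ee]

theorem eq_sum (x : E3) : x = x 0 • ee 0 + x 1 • ee 1 + x 2 • ee 2 := by
  ext i
  fin_cases i <;> simp [ee]

theorem pr_eq (x : E3) : pr x = x 0 • ee 0 + x 1 • ee 1 := by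
  ext i
  fin_cases i <;> simp [ee, pr]

/-- the second partial derivatives -/
noncomputable def D2 (f : E3 → ℝ) (x : E3) (i j : Fin 3) : ℝ :=
  fderiv ℝ (fderiv ℝ f) x (ee i) (ee j)

variable {f : E3 → ℝ}

theorem hasFDerivAt_pd (hf : ContDiff ℝ 2 f) (i : Fin 3) (x : E3) :
    HasFDerivAt (pd i f) ((ContinuousLinearMap.apply ℝ ℝ (ee i)).comp
      (fderiv ℝ (fderiv ℝ f) x)) x := by
  have h2 : ContDiff ℝ 1 (fderiv ℝ f) := hf.fderiv_right (by norm_num)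
  exact (ContinuousLinearMap.apply ℝ ℝ (ee i)).hasFDerivAt.comp x
    (h2.differentiable (by norm_num) x).hasFDerivAt

theorem pd_pd (hf : ContDiff ℝ 2 f) (i j : Fin 3) (x : E3) : pd i (pd j f) x = D2 f x i j := by
  unfold pd D2
  have h := (hasFDerivAt_pd hf j x).fderiv
  unfold pd at h
  rw [h]
  rfl

theorem D2_symm (hf : ContDiff ℝ 2 f) (x : E3) (i j : Fin 3) : D2 f x i j = D2 f x j i := by
  have h : IsSymmSndFDerivAt ℝ f x :=
    (hf.contDiffAt).isSymmSndFDerivAt (by simp)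
  exact h.eq _ _

theorem hasFDerivAt_coord (i : Fin 3) (x : E3) :
    HasFDerivAt (fun y : E3 => y i) (EuclideanSpace.proj i : E3 →L[ℝ] ℝ) x :=
  (EuclideanSpace.proj i : E3 →L[ℝ] ℝ).hasFDerivAt

theorem pd_rot (hf : ContDiff ℝ 2 f) (j : Fin 3) (x : E3) :
    pd j (rot f) x = (x 0 * D2 f x j 1 + pd 1 f x * ee j 0) -
      (x 1 * D2 f x j 0 + pd 0 f x * ee j 1) := by
  have h := ((hasFDerivAt_coord 0 x).mul (hasFDerivAt_pd hf 1 x)).sub
    ((hasFDerivAt_coord 1 x).mul (hasFDerivAt_pd hf 0 x))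
  have h1 : fderiv ℝ (rot f) x = _ := h.fderiv
  unfold pd
  rw [h1]
  rfl

theorem rot_rot (hf : ContDiff ℝ 2 f) (x : E3) :
    rot (rot f) x = x 0 ^ 2 * D2 f x 1 1 + x 1 ^ 2 * D2 f x 0 0 - 2 * (x 0 * x 1) * D2 f x 0 1
      - x 0 * pd 0 f x - x 1 * pd 1 f x := by
  show x 0 * pd 1 (rot f) x - x 1 * pd 0 (rot f) x = _
  rw [pd_rot hf, pd_rot hf, D2_symm hf x 1 0]
  simp only [ee_apply]
  norm_num
  ring

theorem lap_eq (hf : ContDiff ℝ 2 f) (x : E3) :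
    lap f x = D2 f x 0 0 + D2 f x 1 1 + D2 f x 2 2 := by
  unfold lap
  rw [trace_eq, Fin.sum_univ_three]
  have h : ∀ i, inner ℝ (ee i) (fderiv ℝ (gradient f) x (ee i)) = D2 f x i i := by
    intro i
    rw [real_inner_comm, inner_hess hf]
    rfl
  rw [h, h, h]

theorem inner_grad_eq (x : E3) :
    inner ℝ x (gradient f x) = x 0 * pd 0 f x + x 1 * pd 1 f x + x 2 * pd 2 f x := by
  rw [inner_gradient']
  calc fderiv ℝ f x x = fderiv ℝ f x (x 0 • ee 0 + x 1 • ee 1 + x 2 • ee 2) :=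
        congrArg _ (eq_sum x)
    _ = _ := by
        rw [map_add, map_add, map_smul, map_smul, map_smul]
        rfl

theorem hess_pr (hf : ContDiff ℝ 2 f) (x : E3) (c : ℝ) :
    inner ℝ (fderiv ℝ (gradient f) x (c • pr x)) (c • pr x) =
      c ^ 2 * (x 0 ^ 2 * D2 f x 0 0 + 2 * (x 0 * x 1) * D2 f x 0 1 + x 1 ^ 2 * D2 f x 1 1) := by
  rw [inner_hess hf, pr_eq]
  simp only [map_add, map_smul, smul_eq_mul, add_apply, smul_apply]
  show c * (x 0 * (c * (x 0 * D2 f x 0 0 + x 1 * D2 f x 1 0)) +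
    x 1 * (c * (x 0 * D2 f x 0 1 + x 1 * D2 f x 1 1))) = _
  rw [D2_symm hf x 1 0]
  ring

theorem hessSq_cw (hG : RowG) {x : E3} (hx : x ∈ cyl) : hessSq cw x = 1 / 2 := by
  have hr : r2 x = 2 := hx
  have hr' : x 0 ^ 2 + x 1 ^ 2 = 2 := hx
  obtain ⟨-, hA⟩ := hG x (by rw [hr]; norm_num)
  rw [hr] at hA
  set c : ℝ := (√2)⁻¹ with hc
  have hc2 : c ^ 2 = 1 / 2 := by
    rw [hc, inv_pow, Real.sq_sqrt (by norm_num)]; norm_num
  set A := fderiv ℝ (gradient cw) x with hAdef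
  have h0 : ∀ h : E3, (A h) 0 = c * h 0 - c ^ 3 * (x 0 * h 0 + x 1 * h 1) * x 0 := by
    intro h
    rw [hA h, inner_eq]
    simp [pr, ee]
  have h1 : ∀ h : E3, (A h) 1 = c * h 1 - c ^ 3 * (x 0 * h 0 + x 1 * h 1) * x 1 := by
    intro h
    rw [hA h, inner_eq]
    simp [pr, ee]
  have h2 : ∀ h : E3, (A h) 2 = 0 := by
    intro h
    rw [hA h, inner_eq]
    simp [pr, ee]
  unfold hessSq
  rw [trace_eq, Fin.sum_univ_three]
  have hi : ∀ i, inner ℝ (ee i) ((A.comp A) (ee i)) = (A (A (ee i))) i := by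
    intro i
    rw [inner_eq]
    fin_cases i <;> simp [ee]
  rw [hi, hi, hi, h0, h1, h2, h0, h1, h0, h1]
  simp only [ee_apply]
  norm_num
  have hc4 : c ^ 4 = 1 / 4 := by
    have : c ^ 4 = (c ^ 2) ^ 2 := by ring
    rw [this, hc2]; norm_num
  have hc6 : c ^ 6 = 1 / 8 := by
    have : c ^ 6 = (c ^ 2) ^ 3 := by ring
    rw [this, hc2]; norm_num
  have key : (c * (c - c ^ 3 * x 0 * x 0) - c ^ 3 * (x 0 * (c - c ^ 3 * x 0 * x 0) +
      x 1 * (-(c ^ 3 * x 0 * x 1))) * x 0) + (c * (c - c ^ 3 * x 1 * x 1) -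
      c ^ 3 * (x 0 * (-(c ^ 3 * x 1 * x 0)) + x 1 * (c - c ^ 3 * x 1 * x 1)) * x 1) =
      2 * c ^ 2 - 2 * c ^ 4 * (x 0 ^ 2 + x 1 ^ 2) + c ^ 6 * (x 0 ^ 2 + x 1 ^ 2) ^ 2 := by ring
  nlinarith [key, hc2, hc4, hc6, hr']

theorem rowL (hG : RowG) : RowL := by
  intro f hf x hx
  have hr : r2 x = 2 := hx
  have hr' : x 0 ^ 2 + x 1 ^ 2 = 2 := hx
  obtain ⟨hgrad, -⟩ := hG x (by rw [hr]; norm_num)
  rw [hr] at hgrad
  unfold stab
  rw [hessSq_cw hG hx, hgrad, hess_pr hf, lap_eq hf, inner_grad_eq, pd_pd hf, rot_rot hf]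
  have hc2 : (√2)⁻¹ ^ 2 = (1 / 2 : ℝ) := by
    rw [inv_pow, Real.sq_sqrt (by norm_num)]; norm_num
  rw [hc2]
  have hx1 : x 1 ^ 2 = 2 - x 0 ^ 2 := by linarith
  rw [hx1]
  ring

end Vale.Agent.P218.CY.H571
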